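import Mathlib
import Vale.Agent.H68.AMDefs
import Vale.Agent.H69.P252E.EntFinal

/-!
# P252 (affine Bernstein problem): the entire-graph form of the question fails for `n ≥ 10`

The problem asks: is every `u ∈ C^∞(ℝ^n)` with positive definite Hessian that solves the affine
maximal equation `∑_{i,j} U^{ij} ∂_i ∂_j w = 0` (`U = det(D²u) (D²u)⁻¹`,
`w = (det D²u)^(-(n+1)/(n+2))`) a quadratic polynomial?  This file states the answer in that
literal form: for every `n ≥ 10` it is NOT true that every such `u` is a polynomial of degree at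
most two.  It is the statement of `A000_EntireCounterexample` with the negation outside.
-/

namespace Vale.Agent.Results.P252.A00000_EntireFormNegated

open Vale.Agent.H68

theorem result : ∀ n : ℕ, 10 ≤ n →
    ¬ ∀ u : (Fin n → ℝ) → ℝ, ContDiff ℝ ((⊤ : ℕ∞) : WithTop ℕ∞) u →
      (∀ x, (hess u x).PosDef) → (∀ x, amOp u x = 0) →
      ∃ (A : Matrix (Fin n) (Fin n) ℝ) (b : Fin n → ℝ) (c : ℝ),
        ∀ x, u x = x ⬝ᵥ A.mulVec x + b ⬝ᵥ x + c := by
  intro n hn h
  obtain ⟨u, hu, hpos, ham, hnq⟩ := Vale.Agent.H69.Ent.entire_all n hn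
  exact hnq (h u hu hpos ham)

end Vale.Agent.Results.P252.A00000_EntireFormNegated
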