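import Mathlib
import Vale.Agent.H68.AMDefs
import Vale.Agent.H68.AMSepDom
import Vale.Agent.H69.P252E.EntFinal

/-!
# P252 (affine Bernstein problem): the two proved results in one statement

(1) For every `n ≥ 10` there is a smooth `u` on all of `ℝ^n` with positive definite Hessian that
solves the affine maximal equation at every point and is not a polynomial of degree at most two
(the statement of `A000_EntireCounterexample`).

(2) In every dimension, an additively separable `u` on a nonempty open set `Ω`, smooth with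
positive definite Hessian, solving the affine maximal equation on `Ω` and with closed graph, has
`Ω = ℝ^n` and is a quadratic polynomial `∑ i, (a i * x i ^ 2 + b i * x i) + c` with all `a i > 0`
(the statement of `A0_SeparableComplete`).
-/

namespace Vale.Agent.Results.P252.A0000_EntireAndSeparable

open Vale.Agent.H68

theorem result :
    (∀ n : ℕ, 10 ≤ n →
      ∃ u : (Fin n → ℝ) → ℝ, ContDiff ℝ ((⊤ : ℕ∞) : WithTop ℕ∞) u ∧
        (∀ x, (hess u x).PosDef) ∧ (∀ x, amOp u x = 0) ∧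
        ¬ ∃ (A : Matrix (Fin n) (Fin n) ℝ) (b : Fin n → ℝ) (c : ℝ),
          ∀ x, u x = x ⬝ᵥ A.mulVec x + b ⬝ᵥ x + c) ∧
    (∀ (n : ℕ) (Ω : Set (Fin n → ℝ)) (u : (Fin n → ℝ) → ℝ) (f : Fin n → ℝ → ℝ),
      IsOpen Ω → Ω.Nonempty → (∀ x ∈ Ω, u x = ∑ i, f i (x i)) →
      ContDiffOn ℝ ((⊤ : ℕ∞) : WithTop ℕ∞) u Ω →
      (∀ x ∈ Ω, (hess u x).PosDef) → (∀ x ∈ Ω, amOp u x = 0) →
      IsClosed {p : (Fin n → ℝ) × ℝ | p.1 ∈ Ω ∧ p.2 = u p.1} →
      Ω = Set.univ ∧ ∃ (a b : Fin n → ℝ) (c : ℝ), (∀ i, 0 < a i) ∧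
        ∀ x, u x = ∑ i, (a i * x i ^ 2 + b i * x i) + c) :=
  ⟨fun n hn => Vale.Agent.H69.Ent.entire_all n hn,
   fun _ Ω u f hΩ hne hsep hsmooth hpos hAM hclosed =>
     am_separable_complete Ω u f hΩ hne hsep hsmooth hpos hAM hclosed⟩

end Vale.Agent.Results.P252.A0000_EntireAndSeparable
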