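import Mathlib
import Vale.Agent.H68.AMDefs
import Vale.Agent.H68.P252.Final
import Vale.Agent.H69.P252E.EntFinal

/-!
# P252 (affine Bernstein problem): both counterexamples for `n ≥ 10` in one statement

For every `n ≥ 10`:

(1) there is a smooth `u` on all of `ℝ^n` with positive definite Hessian that solves the affine
maximal equation at every point, whose graph is a closed subset of `ℝ^n × ℝ`, and which is not a
polynomial of degree at most two (the statement of `A000_EntireCounterexample`, with the closed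
graph added);

(2) there are a nonempty open convex `Ω ≠ ℝ^n` and a `u` smooth on `Ω` with positive definite
Hessian, solving the affine maximal equation on `Ω`, whose graph over `Ω` is a closed subset of
`ℝ^n × ℝ` (the statement of `A00_CounterexampleDimGe10`).
-/

namespace Vale.Agent.Results.P252.A000A_EntireAndHalfSpace

open Vale.Agent.H68

theorem result : ∀ n : ℕ, 10 ≤ n →
    (∃ u : (Fin n → ℝ) → ℝ, ContDiff ℝ ((⊤ : ℕ∞) : WithTop ℕ∞) u ∧
      (∀ x, (hess u x).PosDef) ∧ (∀ x, amOp u x = 0) ∧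
      IsClosed {p : (Fin n → ℝ) × ℝ | p.2 = u p.1} ∧
      ¬ ∃ (A : Matrix (Fin n) (Fin n) ℝ) (b : Fin n → ℝ) (c : ℝ),
        ∀ x, u x = x ⬝ᵥ A.mulVec x + b ⬝ᵥ x + c) ∧
    (∃ (Ω : Set (Fin n → ℝ)) (u : (Fin n → ℝ) → ℝ),
      IsOpen Ω ∧ Convex ℝ Ω ∧ Ω.Nonempty ∧ Ω ≠ Set.univ ∧
      ContDiffOn ℝ ((⊤ : ℕ∞) : WithTop ℕ∞) u Ω ∧
      (∀ x ∈ Ω, (hess u x).PosDef) ∧
      (∀ x ∈ Ω, amOp u x = 0) ∧
      IsClosed {p : (Fin n → ℝ) × ℝ | p.1 ∈ Ω ∧ p.2 = u p.1}) := by
  intro n hn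
  refine ⟨?_, Prof.counterexample_all n hn⟩
  obtain ⟨u, hu, hpos, ham, hnq⟩ := Vale.Agent.H69.Ent.entire_all n hn
  exact ⟨u, hu, hpos, ham,
    isClosed_eq continuous_snd (hu.continuous.comp continuous_fst), hnq⟩

end Vale.Agent.Results.P252.A000A_EntireAndHalfSpace
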