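import Mathlib
import Vale.Agent.H68.AMDefs
import Vale.Agent.H69.P252E.EntFinal

/-!
# P252 (affine Bernstein problem): entire non-quadratic solutions in every dimension `n ≥ 10`

For every `n ≥ 10` there is a smooth function `u` on all of `ℝ^n` whose Hessian is positive
definite at every point, which solves the affine maximal equation
`∑_{i,j} U^{ij} ∂_i ∂_j w = 0` (`U = det(D²u) (D²u)⁻¹`, `w = (det D²u)^(-(n+1)/(n+2))`) at every
point, and which is not a polynomial of degree at most two. Its graph is an entire (hence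
Euclidean complete), locally uniformly convex affine maximal hypersurface that is not an
elliptic paraboloid.

The function is `u (x', Y) = sqrt (Y² + 2 Ψ(|x'|²/2)²)` for `x' ∈ ℝ^(n-1)`, `Y ∈ ℝ`, where
`(Ψ, V)` is the solution, regular at `s = 0` and defined for all `s ≥ 0`, of the radial reduction
of the affine maximal equation (with `m = n - 1`):
`Ψ'^(m-1) (Ψ' + 2 s Ψ'') V^(m+3) = Ψ` and
`2 s Ψ'^(m-2) V^(m+1) ((m-1) Ψ'' V V' + (m+1) Ψ' V'² + Ψ' V V'') + m Ψ'^(m-1) V^(m+2) V' + 1 = 0`.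
The same hypersurface is the graph of `Ψ(|x'|²/2)² / y` over the half-space `y > 0`.
-/

namespace Vale.Agent.Results.P252.A000_EntireCounterexample

open Vale.Agent.H68

theorem result : ∀ n : ℕ, 10 ≤ n →
    ∃ u : (Fin n → ℝ) → ℝ, ContDiff ℝ ((⊤ : ℕ∞) : WithTop ℕ∞) u ∧
      (∀ x, (hess u x).PosDef) ∧ (∀ x, amOp u x = 0) ∧
      ¬ ∃ (A : Matrix (Fin n) (Fin n) ℝ) (b : Fin n → ℝ) (c : ℝ),
        ∀ x, u x = x ⬝ᵥ A.mulVec x + b ⬝ᵥ x + c :=
  fun n hn => Vale.Agent.H69.Ent.entire_all n hn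

end Vale.Agent.Results.P252.A000_EntireCounterexample
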