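import Mathlib
import Vale.Agent.H68.AMDefs
import Vale.Agent.H68.P252.Final

namespace Vale.Agent.Results.P252.A00_CounterexampleDimGe10

open Vale.Agent.H68

/-- **The affine Bernstein problem has a negative answer in every dimension `n ≥ 10`.**
For every `n ≥ 10` there are a nonempty open convex set `Ω ⊆ ℝ^n` with `Ω ≠ ℝ^n` and a function
`u`, smooth on `Ω`, with positive definite Hessian at every point of `Ω`, solving on `Ω` the
affine maximal equation `∑_{i,j} U^{ij} ∂_i ∂_j w = 0` (`U = det(D²u) (D²u)⁻¹`,
`w = (det D²u)^(-(n+1)/(n+2))`), whose graph `{(x, u x) : x ∈ Ω}` is a closed subset of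
`ℝ^n × ℝ` (so the graph is a properly embedded, hence Euclidean complete, hypersurface).
Since `Ω ≠ ℝ^n`, the conclusion of the affine Bernstein problem (`Ω = ℝ^n` and the graph is an
elliptic paraboloid) fails.

The example constructed in the proof is `u (x', y) = Ψ(|x'|²/2)² / y` on the half-space
`y > 0` of `ℝ^(n-1) × ℝ`, where `Ψ` is a global solution, regular at `0`, of a radial system of
ordinary differential equations (local existence at the regular singular point by a contraction,
global existence by a forward-invariant box for the scale-invariant variables). -/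
theorem result (n : ℕ) (hn : 10 ≤ n) :
    ∃ (Ω : Set (Fin n → ℝ)) (u : (Fin n → ℝ) → ℝ),
      IsOpen Ω ∧ Convex ℝ Ω ∧ Ω.Nonempty ∧ Ω ≠ Set.univ ∧
      ContDiffOn ℝ ((⊤ : ℕ∞) : WithTop ℕ∞) u Ω ∧
      (∀ x ∈ Ω, (hess u x).PosDef) ∧
      (∀ x ∈ Ω, amOp u x = 0) ∧
      IsClosed {p : (Fin n → ℝ) × ℝ | p.1 ∈ Ω ∧ p.2 = u p.1} :=
  Prof.counterexample_all n hn

end Vale.Agent.Results.P252.A00_CounterexampleDimGe10
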