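import Mathlib
import Vale.Agent.H68.AMDefs
import Vale.Agent.H68.AMSepDom

namespace Vale.Agent.Results.P252.A0_SeparableComplete

open Vale.Agent.H68

/-- **Affine Bernstein theorem for additively separable graphs over arbitrary domains, with
Euclidean completeness, in every dimension.**
Let `Ω ⊆ ℝ^n` be a nonempty open set (for instance an open convex set), and let `u` be smooth on
`Ω` with positive definite Hessian at every point of `Ω`, of the separable form
`u x = ∑ i, f i (x i)` on `Ω`, and a solution on `Ω` of the affine maximal equation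
`∑_{i,j} U^{ij} ∂_i ∂_j w = 0`, where `U = det(D²u) (D²u)⁻¹` and `w = (det D²u)^(-(n+1)/(n+2))`.
Assume that the graph `{(x, u x) : x ∈ Ω}` is a closed subset of `ℝ^n × ℝ` (for a convex
function on a convex domain this is exactly Euclidean completeness of the graph).
Then `Ω = ℝ^n` and `u` is a quadratic polynomial `∑ i, (a i * x i ^ 2 + b i * x i) + c` with all
`a i > 0`, i.e. the graph is an elliptic paraboloid. -/
theorem result (n : ℕ) (Ω : Set (Fin n → ℝ)) (u : (Fin n → ℝ) → ℝ) (f : Fin n → ℝ → ℝ)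
    (hΩ : IsOpen Ω) (hne : Ω.Nonempty)
    (hsep : ∀ x ∈ Ω, u x = ∑ i, f i (x i))
    (hsmooth : ContDiffOn ℝ ((⊤ : ℕ∞) : WithTop ℕ∞) u Ω)
    (hpos : ∀ x ∈ Ω, (hess u x).PosDef)
    (hAM : ∀ x ∈ Ω, amOp u x = 0)
    (hclosed : IsClosed {p : (Fin n → ℝ) × ℝ | p.1 ∈ Ω ∧ p.2 = u p.1}) :
    Ω = Set.univ ∧ ∃ (a b : Fin n → ℝ) (c : ℝ), (∀ i, 0 < a i) ∧
      ∀ x, u x = ∑ i, (a i * x i ^ 2 + b i * x i) + c :=
  am_separable_complete Ω u f hΩ hne hsep hsmooth hpos hAM hclosed

end Vale.Agent.Results.P252.A0_SeparableComplete
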