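import Mathlib
import Vale.Agent.H68.AMDefs
import Vale.Agent.H68.AMSep

namespace Vale.Agent.Results.P252.A_SeparableEntire

open Vale.Agent.H68

/-- **Affine Bernstein theorem for additively separable entire graphs, in every dimension.**
Let `u : ℝ^n → ℝ` be smooth with positive definite Hessian everywhere, of the separable form
`u x = ∑ i, f i (x i)`, and a solution on all of `ℝ^n` of the affine maximal equation
`∑_{i,j} U^{ij} ∂_i ∂_j w = 0`, where `U = det(D²u) (D²u)⁻¹` and `w = (det D²u)^(-(n+1)/(n+2))`.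
Then `u` is a quadratic polynomial `∑ i, (a i * x i ^ 2 + b i * x i) + c` with all `a i > 0`,
i.e. its graph is an elliptic paraboloid. -/
theorem result (n : ℕ) (u : (Fin n → ℝ) → ℝ) (f : Fin n → ℝ → ℝ)
    (hsep : ∀ x, u x = ∑ i, f i (x i))
    (hsmooth : ContDiff ℝ ((⊤ : ℕ∞) : WithTop ℕ∞) u)
    (hpos : ∀ x, (hess u x).PosDef)
    (hAM : ∀ x, amOp u x = 0) :
    ∃ (a b : Fin n → ℝ) (c : ℝ), (∀ i, 0 < a i) ∧
      ∀ x, u x = ∑ i, (a i * x i ^ 2 + b i * x i) + c :=
  am_separable u f hsep hsmooth hpos hAM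

end Vale.Agent.Results.P252.A_SeparableEntire
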